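import Vale.Agent.H95.AreaLaw.Main

/-!
# P356: the area law across every cut whose crossing terms commute with all terms

In particular the two-dimensional area law holds, with a constant depending only on `q`
and `R`, for every finite-range Hamiltonian on the square lattice whose terms pairwise
commute and which has a unique gapped ground state.
-/

namespace Vale.Agent.Results.P356.A_CommutingCutAreaLaw

open Matrix Vale.Agent.H95.AreaLaw

theorem result (q R L : ℕ)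
    (h : Finset (Fin L × Fin L) → Matrix (Fin L × Fin L → Fin q) (Fin L × Fin L → Fin q) ℂ)
    (hherm : ∀ X, (h X).IsHermitian) (hloc : ∀ X, ActsOn X (h X))
    (hrange : ∀ X, (∃ x ∈ X, ∃ y ∈ X, R < l1dist x y) → h X = 0)
    (Δ E0 : ℝ) (Ω : (Fin L × Fin L → Fin q) → ℂ) (hΔ : 0 < Δ)
    (hg : IsGappedGroundState (∑ X, h X) Δ E0 Ω)
    (A : Finset (Fin L × Fin L))
    (hcomm : ∀ X, (∃ x ∈ X, x ∈ A) → (∃ y ∈ X, y ∉ A) → ∀ Y, Commute (h X) (h Y)) :
    entropy A Ω ≤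
      (2 * (4 * (R : ℝ) + 1) ^ 2 * 2 ^ ((4 * R + 1) ^ 2) * Real.log q) *
        ((edgeBoundary A).card : ℝ) := by
  classical
  set cross : Finset (Finset (Fin L × Fin L)) := Finset.univ.filter (fun X =>
    (∀ x ∈ X, ∀ y ∈ X, l1dist x y ≤ R) ∧ (∃ x ∈ X, x ∈ A) ∧ (∃ y ∈ X, y ∉ A)) with hcross
  have hc1 : ∀ X ∈ cross, (∃ x ∈ X, x ∈ A) ∧ (∃ y ∈ X, y ∉ A) := by
    intro X hX
    rw [hcross, Finset.mem_filter] at hX
    exact hX.2.2
  have hc2 : ∀ X, X ∉ cross → (∃ x ∈ X, x ∈ A) → (∃ y ∈ X, y ∉ A) → h X = 0 := by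
    intro X hX h1 h2
    apply hrange
    by_contra hcon
    apply hX
    rw [hcross, Finset.mem_filter]
    refine ⟨Finset.mem_univ _, ?_, h1, h2⟩
    intro x hx y hy
    by_contra hlt
    exact hcon ⟨x, hx, y, hy, not_le.mp hlt⟩
  have hmain := entropy_le_of_commuting_cut h hherm hloc hΔ hg A cross hc1 hc2
    (fun X hX Y => hcomm X (hc1 X hX).1 (hc1 X hX).2 Y)
  obtain ⟨hcard, hsize⟩ := card_crossing_le A R cross (by
    intro X hX
    rw [hcross, Finset.mem_filter] at hX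
    exact hX.2)
  rw [Finset.prod_pow_eq_pow_sum, Nat.cast_pow, Real.log_pow] at hmain
  have hlog : 0 ≤ Real.log (q : ℝ) := Real.log_natCast_nonneg q
  have hsum : ∑ X ∈ cross, 2 * X.card ≤
      (edgeBoundary A).card * 2 ^ ((4 * R + 1) ^ 2) * (2 * (4 * R + 1) ^ 2) := by
    calc ∑ X ∈ cross, 2 * X.card ≤ ∑ X ∈ cross, 2 * (4 * R + 1) ^ 2 :=
          Finset.sum_le_sum fun X hX => Nat.mul_le_mul_left 2 (hsize X hX)
      _ = cross.card * (2 * (4 * R + 1) ^ 2) := by rw [Finset.sum_const, smul_eq_mul]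
      _ ≤ (edgeBoundary A).card * 2 ^ ((4 * R + 1) ^ 2) * (2 * (4 * R + 1) ^ 2) :=
          Nat.mul_le_mul_right _ hcard
  have hsumR : ((∑ X ∈ cross, 2 * X.card : ℕ) : ℝ) ≤
      ((edgeBoundary A).card : ℝ) * 2 ^ ((4 * R + 1) ^ 2) * (2 * (4 * (R : ℝ) + 1) ^ 2) := by
    exact_mod_cast hsum
  calc entropy A Ω ≤ ((∑ X ∈ cross, 2 * X.card : ℕ) : ℝ) * Real.log q := hmain
    _ ≤ (((edgeBoundary A).card : ℝ) * 2 ^ ((4 * R + 1) ^ 2) * (2 * (4 * (R : ℝ) + 1) ^ 2)) *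
          Real.log q := mul_le_mul_of_nonneg_right hsumR hlog
    _ = (2 * (4 * (R : ℝ) + 1) ^ 2 * 2 ^ ((4 * R + 1) ^ 2) * Real.log q) *
          ((edgeBoundary A).card : ℝ) := by ring

end Vale.Agent.Results.P356.A_CommutingCutAreaLaw
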