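import Vale.Agent.Results.P356.A_CommutingCutAreaLaw

/-!
# P356: the area law across commuting cuts, and for every region when all terms commute

The conjunction of the statement of `A_CommutingCutAreaLaw` (area law across every cut whose
crossing terms commute with all terms) and of its corollary in the problem's own form: if all
terms of the finite-range Hamiltonian pairwise commute and the ground state is unique and
gapped, the area law holds for every region, with a constant depending only on `q` and `R`.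
-/

namespace Vale.Agent.Results.P356.B_CutAndAllRegions

open Matrix Vale.Agent.H95.AreaLaw

theorem result :
    (∀ (q R L : ℕ)
      (h : Finset (Fin L × Fin L) →
        Matrix (Fin L × Fin L → Fin q) (Fin L × Fin L → Fin q) ℂ),
      (∀ X, (h X).IsHermitian) → (∀ X, ActsOn X (h X)) →
      (∀ X, (∃ x ∈ X, ∃ y ∈ X, R < l1dist x y) → h X = 0) →
      ∀ (Δ E0 : ℝ) (Ω : (Fin L × Fin L → Fin q) → ℂ), 0 < Δ →
      IsGappedGroundState (∑ X, h X) Δ E0 Ω →
      ∀ A : Finset (Fin L × Fin L),
      (∀ X, (∃ x ∈ X, x ∈ A) → (∃ y ∈ X, y ∉ A) → ∀ Y, Commute (h X) (h Y)) →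
      entropy A Ω ≤
        (2 * (4 * (R : ℝ) + 1) ^ 2 * 2 ^ ((4 * R + 1) ^ 2) * Real.log q) *
          ((edgeBoundary A).card : ℝ)) ∧
    (∀ (q R L : ℕ)
      (h : Finset (Fin L × Fin L) →
        Matrix (Fin L × Fin L → Fin q) (Fin L × Fin L → Fin q) ℂ),
      (∀ X, (h X).IsHermitian) → (∀ X, ActsOn X (h X)) →
      (∀ X, (∃ x ∈ X, ∃ y ∈ X, R < l1dist x y) → h X = 0) →
      (∀ X Y, Commute (h X) (h Y)) →
      ∀ (Δ E0 : ℝ) (Ω : (Fin L × Fin L → Fin q) → ℂ), 0 < Δ →
      IsGappedGroundState (∑ X, h X) Δ E0 Ω →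
      ∀ A : Finset (Fin L × Fin L),
      entropy A Ω ≤
        (2 * (4 * (R : ℝ) + 1) ^ 2 * 2 ^ ((4 * R + 1) ^ 2) * Real.log q) *
          ((edgeBoundary A).card : ℝ)) :=
  ⟨fun q R L h hherm hloc hrange Δ E0 Ω hΔ hg A hcomm =>
      A_CommutingCutAreaLaw.result q R L h hherm hloc hrange Δ E0 Ω hΔ hg A hcomm,
    fun q R L h hherm hloc hrange hall Δ E0 Ω hΔ hg A =>
      A_CommutingCutAreaLaw.result q R L h hherm hloc hrange Δ E0 Ω hΔ hg A
        (fun X _ _ Y => hall X Y)⟩

end Vale.Agent.Results.P356.B_CutAndAllRegions
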